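import Vale.Agent.P218.CY.Defs
import Mathlib.MeasureTheory.Measure.Hausdorff
import Mathlib.MeasureTheory.Measure.Haar.Unique
import Mathlib.Analysis.InnerProductSpace.PiL2
import Mathlib.Probability.Distributions.Gaussian.Real
import Mathlib.Analysis.SpecialFunctions.Trigonometric.Deriv
import Mathlib.Tactic

/-! The area measure of the round cylinder of radius `√2` in `ℝ³`. -/

set_option autoImplicit false

open MeasureTheory Set Filter Topology
open scoped ENNReal NNReal

namespace Vale.Agent.P218.CY.H585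

open Vale.Agent.P218.H63

theorem isClosed_cyl : IsClosed cyl :=
  isClosed_eq (by fun_prop) continuous_const

theorem measurableSet_cyl : MeasurableSet cyl := isClosed_cyl.measurableSet

/-- the area measure of the cylinder -/
noncomputable def nu : Measure E3 := (μH[2] : Measure E3).restrict cyl

/-- the standard parametrisation -/
noncomputable def param (p : Fin 2 → ℝ) : E3 :=
  !₂[√2 * Real.cos (p 0), √2 * Real.sin (p 0), p 1]

theorem lipschitz_param : LipschitzWith 2 param := by
  refine LipschitzWith.of_dist_le_mul fun p q => ?_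
  have h0 : |p 0 - q 0| ≤ dist p q := by
    rw [← Real.dist_eq]; exact dist_le_pi_dist p q 0
  have h1 : |p 1 - q 1| ≤ dist p q := by
    rw [← Real.dist_eq]; exact dist_le_pi_dist p q 1
  have hd : 0 ≤ dist p q := dist_nonneg
  rw [EuclideanSpace.dist_eq]
  have h2 : (0 : ℝ) ≤ 2 * dist p q := by positivity
  refine Real.sqrt_le_iff.2 ⟨by simp, ?_⟩
  rw [Fin.sum_univ_three]
  simp only [param, Real.dist_eq, sq_abs]
  have hs2 : √2 ^ 2 = (2 : ℝ) := Real.sq_sqrt (by norm_num)
  have hc : 2 - 2 * Real.cos (p 0 - q 0) ≤ (p 0 - q 0) ^ 2 := by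
    have := Real.one_sub_sq_div_two_le_cos (x := p 0 - q 0)
    linarith
  have hcos : Real.cos (p 0 - q 0)
      = Real.cos (p 0) * Real.cos (q 0) + Real.sin (p 0) * Real.sin (q 0) := Real.cos_sub _ _
  have e1 := Real.sin_sq_add_cos_sq (p 0)
  have e2 := Real.sin_sq_add_cos_sq (q 0)
  have hq0 : (p 0 - q 0) ^ 2 ≤ dist p q ^ 2 := by
    rw [← sq_abs]; exact pow_le_pow_left₀ (abs_nonneg _) h0 2
  have hq1 : (p 1 - q 1) ^ 2 ≤ dist p q ^ 2 := by
    rw [← sq_abs]; exact pow_le_pow_left₀ (abs_nonneg _) h1 2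
  have hg : (√2 * Real.cos (p 0) - √2 * Real.cos (q 0)) ^ 2
      + (√2 * Real.sin (p 0) - √2 * Real.sin (q 0)) ^ 2
      = 2 * (2 - 2 * Real.cos (p 0 - q 0)) := by
    rw [hcos]
    linear_combination
      ((Real.cos (p 0) - Real.cos (q 0)) ^ 2 + (Real.sin (p 0) - Real.sin (q 0)) ^ 2) * hs2
      + 2 * e1 + 2 * e2
  have : (√2 * Real.cos (p 0) - √2 * Real.cos (q 0)) ^ 2
      + (√2 * Real.sin (p 0) - √2 * Real.sin (q 0)) ^ 2 + (p 1 - q 1) ^ 2
      ≤ (2 * dist p q) ^ 2 := by
    rw [hg]; nlinarith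
  simpa using this

/-- the band of height `n` -/
def band (n : ℝ) : Set E3 := cyl ∩ {x | |x 2| ≤ n}

theorem band_subset (n : ℝ) :
    band n ⊆ param '' Set.pi univ ![Icc (-Real.pi) Real.pi, Icc (-n) n] := by
  rintro x ⟨hx, hz⟩
  have hx' : x 0 ^ 2 + x 1 ^ 2 = 2 := hx
  set c : ℂ := ⟨x 0 / √2, x 1 / √2⟩
  have h2 : √2 ^ 2 = (2 : ℝ) := Real.sq_sqrt (by norm_num)
  have hne : (√2 : ℝ) ≠ 0 := by positivity
  have hc : ‖c‖ = 1 := by
    rw [Complex.norm_def, Complex.normSq_mk]
    rw [Real.sqrt_eq_one]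
    field_simp
    linarith
  have hc0 : c ≠ 0 := by
    intro h; rw [h] at hc; simp at hc
  refine ⟨![Complex.arg c, x 2], ?_, ?_⟩
  · intro i _
    fin_cases i
    · exact ⟨(Complex.neg_pi_lt_arg c).le, Complex.arg_le_pi c⟩
    · exact abs_le.1 hz
  · have hcos : Real.cos (Complex.arg c) = x 0 / √2 := by
      rw [Complex.cos_arg hc0, hc, div_one]
    have hsin : Real.sin (Complex.arg c) = x 1 / √2 := by
      rw [Complex.sin_arg, hc, div_one]
    ext i
    fin_cases i
    · simp [param, hcos]; field_simp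
    · simp [param, hsin]; field_simp
    · simp [param]

theorem measure_band_lt_top (n : ℝ) : (μH[2] : Measure E3) (band n) < ⊤ := by
  refine lt_of_le_of_lt (measure_mono (band_subset n)) ?_
  refine lt_of_le_of_lt (lipschitz_param.hausdorffMeasure_image_le (by norm_num) _) ?_
  have h : (μH[2] : Measure (Fin 2 → ℝ)) = volume := by
    have := hausdorffMeasure_pi_real (ι := Fin 2)
    simpa using this
  rw [h]
  refine ENNReal.mul_lt_top (by simp) ?_
  refine (isCompact_univ_pi fun i => ?_).measure_lt_top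
  fin_cases i
  · exact isCompact_Icc
  · exact isCompact_Icc

/-- projection to the plane `(x₀, x₂)` -/
def proj (x : E3) : Fin 2 → ℝ := ![x 0, x 2]

theorem lipschitz_proj : LipschitzWith 1 proj := by
  refine LipschitzWith.of_dist_le_mul fun x y => ?_
  rw [NNReal.coe_one, one_mul, dist_pi_le_iff dist_nonneg]
  have h : ∀ i, dist (x i) (y i) ≤ dist x y := fun i => by
    rw [dist_eq_norm, dist_eq_norm]
    exact PiLp.norm_apply_le (x - y) i
  intro i
  fin_cases i
  · exact h 0
  · exact h 2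

theorem measure_band_pos : 0 < (μH[2] : Measure E3) (band 1) := by
  have h1 := lipschitz_proj.hausdorffMeasure_image_le (d := 2) (by norm_num) (band 1)
  rw [ENNReal.coe_one, ENNReal.one_rpow, one_mul] at h1
  refine lt_of_lt_of_le ?_ h1
  have h : (μH[2] : Measure (Fin 2 → ℝ)) = volume := by
    have := hausdorffMeasure_pi_real (ι := Fin 2)
    simpa using this
  rw [h]
  have hsub : Set.pi univ (fun _ : Fin 2 => Icc (-1 : ℝ) 1) ⊆ proj '' band 1 := by
    intro p hp
    have h0 := hp 0 (mem_univ _)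
    have h1 := hp 1 (mem_univ _)
    have hsq : p 0 ^ 2 ≤ 1 := by nlinarith [h0.1, h0.2]
    refine ⟨!₂[p 0, √(2 - p 0 ^ 2), p 1], ⟨?_, ?_⟩, ?_⟩
    · change (p 0) ^ 2 + (√(2 - p 0 ^ 2)) ^ 2 = 2
      rw [Real.sq_sqrt (by linarith)]; ring
    · exact abs_le.2 h1
    · ext i
      fin_cases i <;> rfl
  refine lt_of_lt_of_le ?_ (measure_mono hsub)
  rw [volume_pi, Measure.pi_pi]
  norm_num


theorem nu_band (n : ℝ) : nu {x | |x 2| ≤ n} = (μH[2] : Measure E3) (band n) := by
  rw [nu, Measure.restrict_apply' measurableSet_cyl, band, inter_comm]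

/-- isometries which preserve the cylinder preserve its area measure -/
theorem map_nu (g : E3 ≃ᵢ E3) (hg : ∀ x, g x ∈ cyl ↔ x ∈ cyl) : nu.map g = nu := by
  have h1 : MeasurePreserving g (μH[2] : Measure E3) μH[2] :=
    ⟨g.continuous.measurable, g.map_hausdorffMeasure 2⟩
  have h2 := h1.restrict_preimage measurableSet_cyl
  have h3 : g ⁻¹' cyl = cyl := by ext x; exact hg x
  rw [h3] at h2
  exact h2.map_eq

/-- vertical translation -/
noncomputable def shift (t : ℝ) : E3 ≃ᵢ E3 := IsometryEquiv.addRight (EuclideanSpace.single 2 t)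

theorem shift_apply (t : ℝ) (x : E3) : shift t x = x + EuclideanSpace.single 2 t := rfl

theorem shift_mem (t : ℝ) (x : E3) : shift t x ∈ cyl ↔ x ∈ cyl := by
  simp [shift_apply, cyl]

theorem map_shift (t : ℝ) : nu.map (shift t) = nu := map_nu _ (shift_mem t)

/-- the height of a point -/
def ht (x : E3) : ℝ := x 2

theorem measurable_ht : Measurable ht := by unfold ht; fun_prop

theorem continuous_ht : Continuous ht := by unfold ht; fun_prop

/-- distribution of the height -/
noncomputable def kap : Measure ℝ := nu.map ht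

theorem kap_shift (t : ℝ) : kap.map (fun z => t + z) = kap := by
  rw [kap, Measure.map_map (by fun_prop) measurable_ht]
  conv_rhs => rw [← map_shift t, Measure.map_map measurable_ht (shift t).continuous.measurable]
  congr 1
  ext x
  simp [ht, shift_apply, add_comm]

instance : kap.IsAddLeftInvariant := ⟨kap_shift⟩

instance : IsFiniteMeasureOnCompacts kap := by
  refine ⟨fun K hK => ?_⟩
  obtain ⟨n, hn⟩ := hK.isBounded.subset_closedBall 0
  refine lt_of_le_of_lt (measure_mono hn) ?_
  rw [kap, Measure.map_apply measurable_ht Metric.isClosed_closedBall.measurableSet]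
  have : ht ⁻¹' Metric.closedBall 0 n = {x : E3 | |x 2| ≤ n} := by
    ext x; simp [ht]
  rw [this, nu_band]
  exact measure_band_lt_top n

/-- the length of the cross section -/
noncomputable def cc : ℝ≥0 := Measure.addHaarScalarFactor kap volume

theorem kap_eq : kap = cc • (volume : Measure ℝ) :=
  Measure.isAddLeftInvariant_eq_smul kap volume

theorem cc_pos : 0 < cc := by
  rw [pos_iff_ne_zero]
  intro h
  have h1 := measure_band_pos
  rw [← nu_band] at h1
  have h2 : nu {x | |x 2| ≤ 1} = kap (Icc (-1) 1) := by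
    rw [kap, Measure.map_apply measurable_ht measurableSet_Icc]
    congr 1
    ext x; simp [ht, abs_le]
  rw [h2, kap_eq, h] at h1
  simp at h1

theorem integral_ht (f : ℝ → ℝ) (hf : AEStronglyMeasurable f volume) :
    ∫ x, f (x 2) ∂nu = cc * ∫ z, f z := by
  have h : ∫ z, f z ∂kap = ∫ x, f (x 2) ∂nu := by
    rw [kap, integral_map measurable_ht.aemeasurable]
    · rfl
    · have : AEStronglyMeasurable f kap := by
        rw [kap_eq]; exact hf.smul_measure _
      exact this
  rw [← h, kap_eq, integral_smul_nnreal_measure]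
  rfl

theorem integrable_ht (f : ℝ → ℝ) (hf : Integrable f volume) :
    Integrable (fun x : E3 => f (x 2)) nu := by
  have h : Integrable f kap := by rw [kap_eq]; exact hf.smul_measure_nnreal
  exact h.comp_measurable measurable_ht

theorem norm_sq_eq {x : E3} (hx : x ∈ cyl) : ‖x‖ ^ 2 = 2 + x 2 ^ 2 := by
  have h : x 0 ^ 2 + x 1 ^ 2 = 2 := hx
  rw [EuclideanSpace.norm_sq_eq, Fin.sum_univ_three]
  simp only [Real.norm_eq_abs, sq_abs]
  linarith

theorem norm_eq {x : E3} (hx : x ∈ cyl) : ‖x‖ = √(2 + x 2 ^ 2) := by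
  rw [← norm_sq_eq hx, Real.sqrt_sq (norm_nonneg x)]

theorem ae_mem_cyl : ∀ᵐ x ∂nu, x ∈ cyl := ae_restrict_mem measurableSet_cyl

theorem gaussArea_eq : gaussArea 2 cyl
    = nu.withDensity fun x => ENNReal.ofReal (Real.exp (-‖x‖ ^ 2 / 4)) := by
  simp [gaussArea, nu]

/-- integrability of a function of the height -/
theorem integrable_gauss (p : ℕ) :
    Integrable (fun z : ℝ => Real.exp (-(2 + z ^ 2) / 4) * (1 + √(2 + z ^ 2)) ^ p) volume := by
  have h1 : Integrable (fun z : ℝ => ((p.factorial : ℝ) * Real.exp 3) *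
      Real.exp (-(1 / 8) * z ^ 2)) volume :=
    (integrable_exp_neg_mul_sq (by norm_num)).const_mul _
  refine h1.mono' (by fun_prop) (Eventually.of_forall fun z => ?_)
  have ht : 0 ≤ √(2 + z ^ 2) := Real.sqrt_nonneg _
  have ht2 : √(2 + z ^ 2) ^ 2 = 2 + z ^ 2 := Real.sq_sqrt (by positivity)
  set t := √(2 + z ^ 2) with hdef
  have hf : (0 : ℝ) < p.factorial := by positivity
  have h2 : (1 + t) ^ p ≤ p.factorial * Real.exp (1 + t) := by
    have := Real.pow_div_factorial_le_exp (x := 1 + t) (by positivity) p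
    rwa [div_le_iff₀ hf, mul_comm] at this
  rw [Real.norm_eq_abs, abs_of_nonneg (by positivity)]
  calc Real.exp (-(2 + z ^ 2) / 4) * (1 + t) ^ p
      ≤ Real.exp (-(2 + z ^ 2) / 4) * (p.factorial * Real.exp (1 + t)) := by gcongr
    _ = p.factorial * Real.exp (-(2 + z ^ 2) / 4 + (1 + t)) := by
        rw [Real.exp_add (-(2 + z ^ 2) / 4) (1 + t)]; ring
    _ ≤ p.factorial * Real.exp (3 + -(1 / 8) * z ^ 2) := by
        refine mul_le_mul_of_nonneg_left (Real.exp_le_exp.2 ?_) hf.le
        nlinarith [sq_nonneg (t - 4)]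
    _ = p.factorial * Real.exp 3 * Real.exp (-(1 / 8) * z ^ 2) := by
        rw [Real.exp_add 3]; ring

theorem measurable_dens : Measurable fun x : E3 => ENNReal.ofReal (Real.exp (-‖x‖ ^ 2 / 4)) := by
  fun_prop

theorem integrable_gaussArea_iff (f : E3 → ℝ) : Integrable f (gaussArea 2 cyl) ↔
    Integrable (fun x => Real.exp (-‖x‖ ^ 2 / 4) * f x) nu := by
  rw [gaussArea_eq, integrable_withDensity_iff_integrable_smul' measurable_dens
    (Eventually.of_forall fun x => ENNReal.ofReal_lt_top)]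
  simp only [ENNReal.toReal_ofReal (Real.exp_pos _).le, smul_eq_mul]

theorem integral_gaussArea_eq (f : E3 → ℝ) : ∫ x, f x ∂(gaussArea 2 cyl)
    = ∫ x, Real.exp (-‖x‖ ^ 2 / 4) * f x ∂nu := by
  rw [gaussArea_eq, integral_withDensity_eq_integral_toReal_smul measurable_dens
    (Eventually.of_forall fun x => ENNReal.ofReal_lt_top)]
  simp only [ENNReal.toReal_ofReal (Real.exp_pos _).le, smul_eq_mul]

/-- Gaussian integrals of functions of the height -/
theorem integral_height (f : ℝ → ℝ) (hf : AEStronglyMeasurable f volume) :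
    ∫ x, f (x 2) ∂(gaussArea 2 cyl) = cc * ∫ z, Real.exp (-(2 + z ^ 2) / 4) * f z := by
  rw [integral_gaussArea_eq, ← integral_ht _ (by fun_prop)]
  refine integral_congr_ae ?_
  filter_upwards [ae_mem_cyl] with x hx
  rw [neg_div, neg_div, norm_sq_eq hx]

theorem moments (p : ℕ) : Integrable (fun x : E3 => (1 + ‖x‖) ^ p) (gaussArea 2 cyl) := by
  rw [integrable_gaussArea_iff]
  refine (integrable_ht _ (integrable_gauss p)).congr ?_
  filter_upwards [ae_mem_cyl] with x hx
  rw [← norm_eq hx, neg_div, neg_div, norm_sq_eq hx]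

theorem nu_ne_zero : nu ≠ 0 := by
  intro h
  have h1 := measure_band_pos
  rw [← nu_band, h] at h1
  simp at h1

theorem mass_pos : 0 < gaussArea 2 cyl univ := by
  rw [pos_iff_ne_zero, gaussArea_eq, withDensity_apply _ MeasurableSet.univ, Measure.restrict_univ]
  intro h
  rw [lintegral_eq_zero_iff measurable_dens] at h
  apply nu_ne_zero
  rw [← Measure.measure_univ_eq_zero]
  have h2 : ∀ᵐ x ∂nu, False := by
    filter_upwards [h] with x hx
    have : Real.exp (-‖x‖ ^ 2 / 4) ≤ 0 := ENNReal.ofReal_eq_zero.1 hx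
    exact absurd this (not_le.2 (Real.exp_pos _))
  simpa [ae_iff] using h2

end Vale.Agent.P218.CY.H585
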